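import Mathlib
import Vale.Agent.Lib.P274.TangentMain
import Vale.Agent.Lib.P274.SA.Defs
import Vale.Agent.Lib.P274.SA.Main

/-!
# P274, question Q2 for semialgebraic open subsets of the complex line

A nonempty bounded connected semialgebraic open subset `U` of the complex plane that carries a
cocompact family of biholomorphic self-maps (closed under inverses) is biholomorphic to the unit
disc, which is a bounded symmetric domain.
-/

namespace Vale.Agent.Results.P274.PlanarSemialgebraic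

open Set Metric Vale.Agent.Lib.P274.SA

theorem result (U : Set ℂ) (hUo : IsOpen U) (hUc : IsConnected U) (hUb : Bornology.IsBounded U)
    -- `U` is a finite Boolean combination of sets `{P (re z, im z) > 0}`, `{P (re z, im z) = 0}`
    (hUs : Semialg U)
    -- a family of biholomorphic self-maps of `U`, closed under inverses
    (Γ : Set (ℂ → ℂ)) (hΓd : ∀ γ ∈ Γ, DifferentiableOn ℂ γ U) (hΓm : ∀ γ ∈ Γ, MapsTo γ U U)
    (hΓi : ∀ γ ∈ Γ, ∃ γ' ∈ Γ, (∀ z ∈ U, γ' (γ z) = z) ∧ (∀ z ∈ U, γ (γ' z) = z))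
    -- cocompactness: the translates of a compact subset cover `U`
    (K : Set ℂ) (hK : IsCompact K) (hKU : K ⊆ U) (hcov : ∀ z ∈ U, ∃ γ ∈ Γ, ∃ k ∈ K, γ k = z) :
    ∃ Φ Ψ : ℂ → ℂ, DifferentiableOn ℂ Φ (ball 0 1) ∧ DifferentiableOn ℂ Ψ U ∧
      MapsTo Φ (ball 0 1) U ∧ MapsTo Ψ U (ball 0 1) ∧
      (∀ ζ ∈ ball (0 : ℂ) 1, Ψ (Φ ζ) = ζ) ∧ (∀ z ∈ U, Φ (Ψ z) = z) := by
  obtain ⟨M, hM⟩ := hUb.exists_norm_le
  obtain ⟨P, hP, hF⟩ := hUs.frontier_subset
  obtain ⟨c, c', ρ, ρ', hρ, hρ', htan, hin, hout⟩ := exists_touching hUo hUc.nonempty hUb hP hF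
  exact Vale.Agent.Lib.P274.disc_of_tangent hUo hUc.isPreconnected hM hΓd hΓm hΓi hK hKU hcov
    hρ hρ' htan hin hout

end Vale.Agent.Results.P274.PlanarSemialgebraic
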