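import Mathlib
import Vale.Agent.Lib.P274.TangentMain

/-!
# P274 (question Q2 in complex dimension one)

A bounded connected open set `U` of the complex plane that carries a cocompact family of
biholomorphic self-maps and has one pair of touching discs, an open one inside `U` and a closed one
disjoint from `U`, is biholomorphic to the unit disc.
-/

namespace Vale.Agent.Results.P274.TangentDiscs

open Set Metric

theorem result (U : Set ℂ) (hUo : IsOpen U) (hUc : IsConnected U) (hUb : Bornology.IsBounded U)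
    -- a family of biholomorphic self-maps of `U`, closed under inverses
    (Γ : Set (ℂ → ℂ)) (hΓd : ∀ γ ∈ Γ, DifferentiableOn ℂ γ U) (hΓm : ∀ γ ∈ Γ, MapsTo γ U U)
    (hΓi : ∀ γ ∈ Γ, ∃ γ' ∈ Γ, (∀ z ∈ U, γ' (γ z) = z) ∧ (∀ z ∈ U, γ (γ' z) = z))
    -- cocompactness: the translates of a compact subset cover `U`
    (K : Set ℂ) (hK : IsCompact K) (hKU : K ⊆ U) (hcov : ∀ z ∈ U, ∃ γ ∈ Γ, ∃ k ∈ K, γ k = z)
    -- an open disc inside `U` touching a closed disc disjoint from `U`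
    (c c' : ℂ) (ρ ρ' : ℝ) (hρ : 0 < ρ) (hρ' : 0 < ρ') (htan : dist c c' = ρ + ρ')
    (hin : ball c ρ ⊆ U) (hout : Disjoint U (closedBall c' ρ')) :
    ∃ Φ Ψ : ℂ → ℂ, DifferentiableOn ℂ Φ (ball 0 1) ∧ DifferentiableOn ℂ Ψ U ∧
      MapsTo Φ (ball 0 1) U ∧ MapsTo Ψ U (ball 0 1) ∧
      (∀ ζ ∈ ball (0 : ℂ) 1, Ψ (Φ ζ) = ζ) ∧ (∀ z ∈ U, Φ (Ψ z) = z) := by
  obtain ⟨M, hM⟩ := hUb.exists_norm_le
  exact Vale.Agent.Lib.P274.disc_of_tangent hUo hUc.isPreconnected hM hΓd hΓm hΓi hK hKU hcov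
    hρ hρ' htan hin hout

end Vale.Agent.Results.P274.TangentDiscs
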