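import Mathlib
import Vale.Agent.Results.P274.PlanarSemialgebraic
import Vale.Agent.Results.P274.TangentDiscs

/-!
# P274, question Q2 in complex dimension one: the two results in one statement

(1) A nonempty bounded connected semialgebraic open subset `U` of the complex plane that carries a
cocompact family of biholomorphic self-maps (closed under inverses) is biholomorphic to the unit disc.
(2) The same conclusion for every bounded connected open `U` (semialgebraic or not) that has one pair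
of touching discs, an open one inside `U` and a closed one disjoint from `U`.
-/

namespace Vale.Agent.Results.P274.A_Combined

open Set Metric Vale.Agent.Lib.P274.SA

theorem result :
    (∀ U : Set ℂ, IsOpen U → IsConnected U → Bornology.IsBounded U → Semialg U →
      ∀ Γ : Set (ℂ → ℂ), (∀ γ ∈ Γ, DifferentiableOn ℂ γ U) → (∀ γ ∈ Γ, MapsTo γ U U) →
      (∀ γ ∈ Γ, ∃ γ' ∈ Γ, (∀ z ∈ U, γ' (γ z) = z) ∧ (∀ z ∈ U, γ (γ' z) = z)) →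
      ∀ K : Set ℂ, IsCompact K → K ⊆ U → (∀ z ∈ U, ∃ γ ∈ Γ, ∃ k ∈ K, γ k = z) →
      ∃ Φ Ψ : ℂ → ℂ, DifferentiableOn ℂ Φ (ball 0 1) ∧ DifferentiableOn ℂ Ψ U ∧
        MapsTo Φ (ball 0 1) U ∧ MapsTo Ψ U (ball 0 1) ∧
        (∀ ζ ∈ ball (0 : ℂ) 1, Ψ (Φ ζ) = ζ) ∧ (∀ z ∈ U, Φ (Ψ z) = z)) ∧
    (∀ U : Set ℂ, IsOpen U → IsConnected U → Bornology.IsBounded U →
      ∀ Γ : Set (ℂ → ℂ), (∀ γ ∈ Γ, DifferentiableOn ℂ γ U) → (∀ γ ∈ Γ, MapsTo γ U U) →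
      (∀ γ ∈ Γ, ∃ γ' ∈ Γ, (∀ z ∈ U, γ' (γ z) = z) ∧ (∀ z ∈ U, γ (γ' z) = z)) →
      ∀ K : Set ℂ, IsCompact K → K ⊆ U → (∀ z ∈ U, ∃ γ ∈ Γ, ∃ k ∈ K, γ k = z) →
      ∀ (c c' : ℂ) (ρ ρ' : ℝ), 0 < ρ → 0 < ρ' → dist c c' = ρ + ρ' →
      ball c ρ ⊆ U → Disjoint U (closedBall c' ρ') →
      ∃ Φ Ψ : ℂ → ℂ, DifferentiableOn ℂ Φ (ball 0 1) ∧ DifferentiableOn ℂ Ψ U ∧
        MapsTo Φ (ball 0 1) U ∧ MapsTo Ψ U (ball 0 1) ∧
        (∀ ζ ∈ ball (0 : ℂ) 1, Ψ (Φ ζ) = ζ) ∧ (∀ z ∈ U, Φ (Ψ z) = z)) :=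
  ⟨fun U h1 h2 h3 h4 Γ h5 h6 h7 K h8 h9 h10 =>
      Vale.Agent.Results.P274.PlanarSemialgebraic.result U h1 h2 h3 h4 Γ h5 h6 h7 K h8 h9 h10,
   fun U h1 h2 h3 Γ h5 h6 h7 K h8 h9 h10 c c' ρ ρ' k1 k2 k3 k4 k5 =>
      Vale.Agent.Results.P274.TangentDiscs.result U h1 h2 h3 Γ h5 h6 h7 K h8 h9 h10 c c' ρ ρ'
        k1 k2 k3 k4 k5⟩

end Vale.Agent.Results.P274.A_Combined
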