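import Mathlib
import Vale.Agent.Lib.P274.TangentMain
import Vale.Agent.Lib.P274.SA.Defs
import Vale.Agent.Lib.P274.SA.Main
import Vale.Agent.Lib.P274.SA.Quot

/-!
# P274, question Q2 for semialgebraic open subsets of the complex line, group action form

Let `U` be a nonempty bounded connected semialgebraic open subset of the complex plane and let a
group `G` act on `U` by holomorphic maps with compact orbit space `U / G`.  Then `U` is biholomorphic
to the unit disc, which is a bounded symmetric domain.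
-/

namespace Vale.Agent.Results.P274.PlanarGroupAction

open Set Metric Vale.Agent.Lib.P274.SA

theorem result (U : Set ℂ) (hUo : IsOpen U) (hUc : IsConnected U) (hUb : Bornology.IsBounded U)
    -- `U` is a finite Boolean combination of sets `{P (re z, im z) > 0}`, `{P (re z, im z) = 0}`
    (hUs : Semialg U)
    -- a group acting on `U` by holomorphic maps (hence by biholomorphisms)
    (G : Type) [Group G] [MulAction G U]
    (hhol : ∀ g : G, ∃ γ : ℂ → ℂ, DifferentiableOn ℂ γ U ∧ ∀ z : U, γ (z : ℂ) = ((g • z : U) : ℂ))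
    -- the orbit space `U / G`, with the quotient topology, is compact
    (hcpt : CompactSpace (Quotient (MulAction.orbitRel G U))) :
    ∃ Φ Ψ : ℂ → ℂ, DifferentiableOn ℂ Φ (ball 0 1) ∧ DifferentiableOn ℂ Ψ U ∧
      MapsTo Φ (ball 0 1) U ∧ MapsTo Ψ U (ball 0 1) ∧
      (∀ ζ ∈ ball (0 : ℂ) 1, Ψ (Φ ζ) = ζ) ∧ (∀ z ∈ U, Φ (Ψ z) = z) := by
  obtain ⟨Γ, K, hΓd, hΓm, hΓi, hK, hKU, hcov⟩ := exists_family_of_action hUo G hhol hcpt
  obtain ⟨M, hM⟩ := hUb.exists_norm_le
  obtain ⟨P, hP, hF⟩ := hUs.frontier_subset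
  obtain ⟨c, c', ρ, ρ', hρ, hρ', htan, hin, hout⟩ := exists_touching hUo hUc.nonempty hUb hP hF
  exact Vale.Agent.Lib.P274.disc_of_tangent hUo hUc.isPreconnected hM hΓd hΓm hΓi hK hKU hcov
    hρ hρ' htan hin hout

end Vale.Agent.Results.P274.PlanarGroupAction
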